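import Mathlib
import Vale.Agent.P034.Containment
import Vale.Agent.P064.DSChar

namespace Vale.Agent.Results.P034.DoubleStarContainment

/-- The ground set is `X = E(K_n)`, the edge set of the complete graph on `Fin n`; its subsets are
identified with the simple graphs on `Fin n` (`S ⊆ T` is `S ≤ T`, `|S|` is the number of edges).
`Contains H G`: the graph `G` contains a copy of `H`.  The family under study is
`F_H = {G | Contains H G}`, an increasing family of subsets of `X`. -/
def Contains {n : ℕ} (H G : SimpleGraph (Fin n)) : Prop :=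
  ∃ H' : SimpleGraph (Fin n), H' ≤ G ∧ Nonempty (H' ≃g H)

/-- The cost `c_p(C) = ∑_{S ∈ C} p^{|S|}` of a family `C` of subsets of `X`. -/
noncomputable def cost {n : ℕ} (C : Finset (SimpleGraph (Fin n))) (p : ℝ) : ℝ :=
  ∑ S ∈ C, p ^ S.edgeSet.ncard

/-- The cost `w(g,p) = ∑_{S ⊆ X} g(S) p^{|S|}` of a weight function `g`. -/
noncomputable def fcost {n : ℕ} (g : SimpleGraph (Fin n) → ℝ) (p : ℝ) : ℝ :=
  ∑ S, g S * p ^ S.edgeSet.ncard

/-- `C` covers `F_H`: every member of `F_H` contains a member of `C`. -/
def Covers {n : ℕ} (C : Finset (SimpleGraph (Fin n))) (H : SimpleGraph (Fin n)) : Prop :=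
  ∀ G, Contains H G → ∃ S ∈ C, S ≤ G

/-- `g` is a fractional cover of `F_H`: values in `[0,1]` and `∑_{S ⊆ G} g(S) ≥ 1` for `G ∈ F_H`. -/
def IsFracCover {n : ℕ} (g : SimpleGraph (Fin n) → ℝ) (H : SimpleGraph (Fin n)) : Prop :=
  (∀ S, 0 ≤ g S ∧ g S ≤ 1) ∧
    ∀ G, Contains H G → 1 ≤ ∑ S, Set.indicator {S : SimpleGraph (Fin n) | S ≤ G} g S

/-- `H` is a forest all of whose components are trees of diameter at most three (isolated vertices,
edges, stars, double stars): there is a set `C` of centres such that every vertex outside `C` has at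
most one neighbour and every vertex of `C` has at most one neighbour in `C`. -/
def IsDoubleStarForest {n : ℕ} (H : SimpleGraph (Fin n)) : Prop :=
  ∃ C : Set (Fin n), (∀ x, x ∉ C → ∀ y z, H.Adj x y → H.Adj x z → y = z) ∧
    (∀ x ∈ C, ∀ y ∈ C, ∀ z ∈ C, H.Adj x y → H.Adj x z → y = z)

/-- Let `H` be a forest whose components have diameter at most three (degrees arbitrary), let `F_H`
be the family of graphs on `n` vertices containing a copy of `H`, and let `g` be an arbitrary
fractional cover of `F_H` of cost at most `1/2` at `p`.  Then `F_H` is `(p/97000)`-small.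
The second part identifies the class: graphs without a non-backtracking walk with four edges. -/
theorem result (n : ℕ) (H : SimpleGraph (Fin n)) (hH : IsDoubleStarForest H)
    (g : SimpleGraph (Fin n) → ℝ) (p : ℝ)
    (hp : 0 ≤ p) (hg : IsFracCover g H) (hcost : fcost g p ≤ 1 / 2) :
    (∃ C : Finset (SimpleGraph (Fin n)), Covers C H ∧ cost C (p / 97000) ≤ 1 / 2) ∧
    (∀ F : SimpleGraph (Fin n), IsDoubleStarForest F ↔
      ∀ a b c d e : Fin n, F.Adj a b → F.Adj b c → F.Adj c d → F.Adj d e →
        a ≠ c → b ≠ d → c ≠ e → False) := by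
  refine ⟨?_, fun F => Vale.Agent.P064.isDSForest_iff F⟩
  refine Vale.Agent.P034.general n H Vale.Agent.P064.IsDSForest p (p / 97000) (by positivity)
    (by linarith) ?_ ?_ g hg hcost
  · intro S π hπ
    obtain ⟨C, h1, h2⟩ := hH
    refine ⟨{x | π x ∈ C}, ?_, ?_⟩
    · intro x hx y z hy hz
      exact π.injective (h1 (π x) hx _ _ (hπ x y hy) (hπ x z hz))
    · intro x hx y hy z hz h3 h4
      exact π.injective (h2 (π x) hx _ hy _ hz (hπ x y h3) (hπ x z h4))
  · intro hq1 hyp S hS
    refine (Vale.Agent.P064.ds_forest_case n H (p / 97000) (by positivity) hq1 hyp S hS).trans ?_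
    have h1 : min 1 (97000 * (p / 97000)) ≤ p := by
      refine (min_le_right _ _).trans ?_
      have : 97000 * (p / 97000) = p := by ring
      rw [this]
    have h0 : (0 : ℝ) ≤ min 1 (97000 * (p / 97000)) := le_min zero_le_one (by positivity)
    gcongr

end Vale.Agent.Results.P034.DoubleStarContainment
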