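import Mathlib
import Vale.Agent.P034.Containment

namespace Vale.Agent.Results.P034.ForestContainment

/-- The ground set is `X = E(K_n)`, the edge set of the complete graph on `Fin n`; its subsets are
identified with the simple graphs on `Fin n` (`S ⊆ T` is `S ≤ T`, `|S|` is the number of edges).
`Contains H G`: the graph `G` contains a copy of `H`.  The family under study is
`F_H = {G | Contains H G}`, an increasing family of subsets of `X`. -/
def Contains {n : ℕ} (H G : SimpleGraph (Fin n)) : Prop :=
  ∃ H' : SimpleGraph (Fin n), H' ≤ G ∧ Nonempty (H' ≃g H)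

/-- The cost `c_p(C) = ∑_{S ∈ C} p^{|S|}` of a family `C` of subsets of `X`. -/
noncomputable def cost {n : ℕ} (C : Finset (SimpleGraph (Fin n))) (p : ℝ) : ℝ :=
  ∑ S ∈ C, p ^ S.edgeSet.ncard

/-- The cost `w(g,p) = ∑_{S ⊆ X} g(S) p^{|S|}` of a weight function `g`. -/
noncomputable def fcost {n : ℕ} (g : SimpleGraph (Fin n) → ℝ) (p : ℝ) : ℝ :=
  ∑ S, g S * p ^ S.edgeSet.ncard

/-- `C` covers `F_H`: every member of `F_H` contains a member of `C`. -/
def Covers {n : ℕ} (C : Finset (SimpleGraph (Fin n))) (H : SimpleGraph (Fin n)) : Prop :=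
  ∀ G, Contains H G → ∃ S ∈ C, S ≤ G

/-- `g` is a fractional cover of `F_H`: values in `[0,1]` and `∑_{S ⊆ G} g(S) ≥ 1` for `G ∈ F_H`. -/
def IsFracCover {n : ℕ} (g : SimpleGraph (Fin n) → ℝ) (H : SimpleGraph (Fin n)) : Prop :=
  (∀ S, 0 ≤ g S ∧ g S ≤ 1) ∧
    ∀ G, Contains H G → 1 ≤ ∑ S, Set.indicator {S : SimpleGraph (Fin n) | S ≤ G} g S

/-- every edge has an endpoint of degree one: every component is a star or an isolated vertex -/
def IsStarForest {n : ℕ} (H : SimpleGraph (Fin n)) : Prop :=
  ∀ a b, H.Adj a b → (∀ x, H.Adj a x → x = b) ∨ (∀ x, H.Adj b x → x = a)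

/-- Let `F_H` be the family of graphs on `n` vertices containing a copy of `H`, and let `g` be an
arbitrary fractional cover of `F_H` of cost at most `1/2` at `p`.
(1) If `H` is a star forest (stars of arbitrary sizes), then `F_H` is `(p/2070)`-small.
(2) If `H` is any forest and `p ≥ 8 (1 + log (2n)) / n`, then `F_H` is `(p/55)`-small. -/
theorem result (n : ℕ) (H : SimpleGraph (Fin n)) (g : SimpleGraph (Fin n) → ℝ) (p : ℝ)
    (hp : 0 ≤ p) (hg : IsFracCover g H) (hcost : fcost g p ≤ 1 / 2) :
    (IsStarForest H → ∃ C : Finset (SimpleGraph (Fin n)), Covers C H ∧ cost C (p / 2070) ≤ 1 / 2) ∧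
    (H.IsAcyclic → 8 * (1 + Real.log (2 * n)) / n ≤ p →
      ∃ C : Finset (SimpleGraph (Fin n)), Covers C H ∧ cost C (p / 55) ≤ 1 / 2) := by
  constructor
  · intro hH
    refine Vale.Agent.P034.general n H Vale.Agent.P064.IsStarForest p (p / 2070) (by positivity)
      (by linarith) ?_ ?_ g hg hcost
    · intro S π hπ a b hab
      rcases hH _ _ (hπ a b hab) with h | h
      · exact Or.inl fun x hx => π.injective (h _ (hπ a x hx))
      · exact Or.inr fun x hx => π.injective (h _ (hπ b x hx))
    · intro hq1 hyp S hS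
      refine (Vale.Agent.P064.star_forest_case n H (p / 2070) (by positivity) hq1 hyp S hS).trans ?_
      have h1 : min 1 (2070 * (p / 2070)) ≤ p := by
        refine (min_le_right _ _).trans ?_
        have : 2070 * (p / 2070) = p := by ring
        rw [this]
      have h0 : (0 : ℝ) ≤ min 1 (2070 * (p / 2070)) := le_min zero_le_one (by positivity)
      gcongr
  · intro hH hside
    refine Vale.Agent.P034.general n H SimpleGraph.IsAcyclic p (p / 55) (by positivity)
      (by linarith) ?_ ?_ g hg hcost
    · intro S π hπ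
      exact SimpleGraph.IsAcyclic.comap (⟨π, fun {a b} hab => hπ a b hab⟩ : S →g H) π.injective hH
    · intro hq1 hyp S hS
      refine (Vale.Agent.P064.forest_case n H (p / 55) (by positivity) hq1 hyp S hS).trans ?_
      have h1 : min 1 (max (55 * (p / 55)) (8 * (1 + Real.log (2 * n)) / n)) ≤ p := by
        refine (min_le_right _ _).trans ?_
        have : 55 * (p / 55) = p := by ring
        rw [this]
        exact max_le le_rfl hside
      have h0 : (0 : ℝ) ≤ min 1 (max (55 * (p / 55)) (8 * (1 + Real.log (2 * n)) / n)) :=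
        le_min zero_le_one (le_max_of_le_left (by positivity))
      gcongr

end Vale.Agent.Results.P034.ForestContainment
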