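import Mathlib
import Vale.Agent.P034.MultiLaminar
import Vale.Agent.P034.Intervals

namespace Vale.Agent.Results.P034.LaminarSupport
open Finset

variable {X : Type*} [Fintype X] [DecidableEq X]

/-- The cost `c_p(G) = ∑_{S ∈ G} p^{|S|}` of a family `G` of subsets of `X`. -/
def cost (G : Finset (Finset X)) (p : ℝ) : ℝ := ∑ S ∈ G, p ^ S.card

/-- The cost `w(g,p) = ∑_{S ⊆ X} g(S) p^{|S|}` of a weight function `g`. -/
def fcost (g : Finset X → ℝ) (p : ℝ) : ℝ := ∑ S : Finset X, g S * p ^ S.card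

/-- `G` covers `F`: every member of `F` contains a member of `G`. -/
def Covers (G F : Finset (Finset X)) : Prop := ∀ H ∈ F, ∃ S ∈ G, S ⊆ H

/-- `g` is a fractional cover of `F`: `∑_{S ⊆ H} g(S) ≥ 1` for every `H ∈ F`. -/
def IsFracCover (g : Finset X → ℝ) (F : Finset (Finset X)) : Prop :=
  ∀ H ∈ F, 1 ≤ ∑ S ∈ H.powerset, g S

/-- `g` is a fractional cover of `F` by packings: every `H ∈ F` contains pairwise disjoint sets of
total weight at least `1`. -/
def IsPackingCover (g : Finset X → ℝ) (F : Finset (Finset X)) : Prop :=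
  ∀ H ∈ F, ∃ M : Finset (Finset X), (∀ S ∈ M, S ⊆ H) ∧
    (∀ S ∈ M, ∀ T ∈ M, S ≠ T → Disjoint S T) ∧ 1 ≤ ∑ S ∈ M, g S

/-- Let `g : 2^X → [0,1]` have cost at most `1/2` at `p ≥ 0`, and let `F` be any family of subsets.
(1) If every member of `F` contains pairwise disjoint sets of total `g`-weight at least `1` (no
condition on the support of `g`), then `F` is `(p/36000)`-small.
(2) If `g` is a fractional cover of `F` whose support consists of pairwise disjoint sets, then `F`
is `(p/36000)`-small.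
(3) If `p ≤ 1` and `g` is a fractional cover of `F` with laminar support (any two sets of nonzero
weight are disjoint or nested), then `F` is `(p/144000)`-small.
(4) If `p ≤ 1` and `g` is a fractional cover of `F` whose support is a union of `m` laminar families
(`cls` names the family of each set), then `F` is `(p/(576000 m^2))`-small.
(5) On the ground set `Fin N`: if `p' ≤ 1` and `g'` is a fractional cover of `F'` of cost at most
`1/2` at `p'` whose support consists of intervals `{c, ..., d}` (arbitrary lengths, weights and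
overlaps), then `F'` is `(p'/144000)`-small. -/
theorem result (F : Finset (Finset X)) (g : Finset X → ℝ) (p : ℝ) (hp : 0 ≤ p)
    (hg : ∀ S, 0 ≤ g S ∧ g S ≤ 1) (hcost : fcost g p ≤ 1 / 2) :
    (IsPackingCover g F → ∃ G : Finset (Finset X), Covers G F ∧ cost G (p / 36000) ≤ 1 / 2) ∧
    (IsFracCover g F → (∀ S T, g S ≠ 0 → g T ≠ 0 → S ≠ T → Disjoint S T) →
      ∃ G : Finset (Finset X), Covers G F ∧ cost G (p / 36000) ≤ 1 / 2) ∧
    (p ≤ 1 → IsFracCover g F →
      (∀ S T, g S ≠ 0 → g T ≠ 0 → Disjoint S T ∨ S ⊆ T ∨ T ⊆ S) →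
      ∃ G : Finset (Finset X), Covers G F ∧ cost G (p / 144000) ≤ 1 / 2) ∧
    (∀ (m : ℕ) (cls : Finset X → Fin m), p ≤ 1 → IsFracCover g F →
      (∀ S T, g S ≠ 0 → g T ≠ 0 → cls S = cls T → Disjoint S T ∨ S ⊆ T ∨ T ⊆ S) →
      ∃ G : Finset (Finset X), Covers G F ∧ cost G (p / (576000 * (m : ℝ) ^ 2)) ≤ 1 / 2) ∧
    (∀ (N : ℕ) (F' : Finset (Finset (Fin N))) (g' : Finset (Fin N) → ℝ) (p' : ℝ),
      0 ≤ p' → p' ≤ 1 → (∀ S, 0 ≤ g' S ∧ g' S ≤ 1) → fcost g' p' ≤ 1 / 2 → IsFracCover g' F' →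
      (∀ S, g' S ≠ 0 → ∃ c d : Fin N, S = Finset.Icc c d) →
      ∃ G : Finset (Finset (Fin N)), Covers G F' ∧ cost G (p' / 144000) ≤ 1 / 2) := by
  have h1 : IsPackingCover g F →
      ∃ G : Finset (Finset X), Covers G F ∧ cost G (p / 36000) ≤ 1 / 2 := by
    intro hF
    obtain ⟨G, hG1, hG2⟩ := Vale.Agent.P034.Packing.main g (fun S => (hg S).1)
      (fun S => (hg S).2) p hp hcost
    exact ⟨G, fun H hH => hG1 H (hF H hH), hG2⟩
  refine ⟨h1, fun hF hdisj => h1 fun H hH => ?_, fun hp1 hF hlam => ?_,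
    fun m cls hp1 hF hlam => ?_, fun N F' g' p' hp0' hp1' hg' hcost' hF' hint => ?_⟩
  · refine ⟨H.powerset.filter (fun S => g S ≠ 0), fun S hS => ?_, fun S hS T hT hne => ?_, ?_⟩
    · exact mem_powerset.1 (mem_filter.1 hS).1
    · exact hdisj S T (mem_filter.1 hS).2 (mem_filter.1 hT).2 hne
    · rw [sum_filter_ne_zero]
      exact hF H hH
  · obtain ⟨G, hG1, hG2⟩ := Vale.Agent.P034.Packing.laminar g (fun S => (hg S).1) p hp hp1 hlam
      hcost
    exact ⟨G, fun H hH => hG1 H (hF H hH), hG2⟩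
  · obtain ⟨G, hG1, hG2⟩ := Vale.Agent.P034.Packing.multi_laminar m cls g (fun S => (hg S).1) p hp
      hp1 hlam hcost
    exact ⟨G, fun H hH => hG1 H (hF H hH), hG2⟩
  · obtain ⟨G, hG1, hG2⟩ := Vale.Agent.P034.Packing.intervals N g' (fun S => (hg' S).1) p' hp0'
      hp1' hint hcost'
    exact ⟨G, fun H hH => hG1 H (hF' H hH), hG2⟩

end Vale.Agent.Results.P034.LaminarSupport
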