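import Mathlib
import Vale.Agent.P034.StarCert

namespace Vale.Agent.Results.P034.StarForestCounting

/-- The ground set is `X = E(K_n)`, the edge set of the complete graph on `Fin n`; its subsets are
identified with the simple graphs on `Fin n` (`S ⊆ T` is `S ≤ T`, `|S|` is the number of edges).
The cost `c_p(C) = ∑_{S ∈ C} p^{|S|}` of a family `C` of subsets of `X`. -/
noncomputable def cost {n : ℕ} (C : Finset (SimpleGraph (Fin n))) (p : ℝ) : ℝ :=
  ∑ S ∈ C, p ^ S.edgeSet.ncard

/-- The cost `w(g,p) = ∑_{S ⊆ X} g(S) p^{|S|}` of a weight function `g`. -/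
noncomputable def fcost {n : ℕ} (g : SimpleGraph (Fin n) → ℝ) (p : ℝ) : ℝ :=
  ∑ S, g S * p ^ S.edgeSet.ncard

/-- `C` covers the family `A`: every member of `A` contains a member of `C`. -/
def Covers {n : ℕ} (C : Finset (SimpleGraph (Fin n))) (A : Set (SimpleGraph (Fin n))) : Prop :=
  ∀ G ∈ A, ∃ S ∈ C, S ≤ G

/-- `g` is a fractional cover of `A`: values in `[0,1]` and `∑_{S ⊆ G} g(S) ≥ 1` for `G ∈ A`. -/
def IsFracCover {n : ℕ} (g : SimpleGraph (Fin n) → ℝ) (A : Set (SimpleGraph (Fin n))) : Prop :=
  (∀ S, 0 ≤ g S ∧ g S ≤ 1) ∧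
    ∀ G ∈ A, 1 ≤ ∑ S, Set.indicator {S : SimpleGraph (Fin n) | S ≤ G} g S

/-- every edge has an endpoint of degree one: every component is a star or an isolated vertex -/
def IsStarForest {n : ℕ} (F : SimpleGraph (Fin n)) : Prop :=
  ∀ a b, F.Adj a b → (∀ x, F.Adj a x → x = b) ∨ (∀ x, F.Adj b x → x = a)

/-- the weight function with the constant value `w` on all copies of `F` in `K_n`, `0` elsewhere -/
noncomputable def copyWeight {n : ℕ} (F : SimpleGraph (Fin n)) (w : ℝ) :
    SimpleGraph (Fin n) → ℝ :=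
  Set.indicator {S : SimpleGraph (Fin n) | Nonempty (S ≃g F)} (fun _ => w)

/-- Star-forest-counting certificates.  Let `F` be a star forest (for instance a star `K_{1,t}` or
a matching) and let `A` be a family of graphs on `n` vertices that is fractionally covered by a
constant weight `w` on the copies of `F`, i.e. every member of `A` contains at least `1/w` copies
of `F`.  If this fractional cover has cost at most `1/2` at `p`, then `A` is `(p/4140)`-small. -/
theorem result (n : ℕ) (F : SimpleGraph (Fin n)) (hF : IsStarForest F) (w p : ℝ) (hp : 0 ≤ p)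
    (A : Set (SimpleGraph (Fin n))) (hg : IsFracCover (copyWeight F w) A)
    (hcost : fcost (copyWeight F w) p ≤ 1 / 2) :
    ∃ C : Finset (SimpleGraph (Fin n)), Covers C A ∧ cost C (p / 4140) ≤ 1 / 2 := by
  have hw : 0 ≤ w := by
    have h := (hg.1 F).1
    have h2 : copyWeight F w F = w := by
      unfold copyWeight
      rw [Set.indicator_of_mem]
      exact ⟨SimpleGraph.Iso.refl⟩
    rwa [h2] at h
  have hcost' : w * ((Vale.Agent.P064.subCount ⊤ F : ℝ) * p ^ F.edgeSet.ncard) ≤ 1 / 2 := by
    rw [← Vale.Agent.P034.fcost_copy F w p]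
    exact hcost
  obtain ⟨C, hC1, hC2⟩ := Vale.Agent.P034.cert n F hF w p hw hp hcost'
  refine ⟨C, fun G hG => hC1 G ?_, hC2⟩
  rw [← Vale.Agent.P034.sum_indicator_copy G F w]
  exact hg.2 G hG

end Vale.Agent.Results.P034.StarForestCounting
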